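import Vale.Agent.P073.H705.Mor1

/-!
# P073 / H339: translations, `p`-version
-/

namespace Vale.Agent.P073.H339.Sl

open MeasureTheory Set Filter Topology Metric Vale.Agent.P073.HB
open Vale.Agent.P073.St (V Mat euc)
open scoped ContDiff ENNReal

/-- Hölder -/
theorem hold {α : Type*} [MeasurableSpace α] {μ : Measure α} {p : ℝ} (hp : 1 < p) {h : α → ℝ≥0∞}
    (hm : AEMeasurable h μ) :
    ∫⁻ z, h z ∂μ ≤ (∫⁻ z, h z ^ p ∂μ) ^ (1 / p) * μ univ ^ (1 - 1 / p) := by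
  have hpq : p.HolderConjugate (Real.conjExponent p) := Real.HolderConjugate.conjExponent hp
  have h1 := ENNReal.lintegral_mul_le_Lp_mul_Lq μ hpq hm
    (aemeasurable_const (b := (1 : ℝ≥0∞)))
  simp only [Pi.mul_apply, mul_one, ENNReal.one_rpow, lintegral_const, one_mul] at h1
  have e1 : 1 / Real.conjExponent p = 1 - 1 / p := by
    have := hpq.inv_add_inv_eq_one
    rw [one_div, one_div]; linarith
  rw [e1] at h1
  exact h1

/-- Jensen -/
theorem jens {α : Type*} [MeasurableSpace α] {μ : Measure α} {p : ℝ} (hp : 1 < p) {h : α → ℝ≥0∞}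
    (hm : AEMeasurable h μ) :
    (∫⁻ z, h z ∂μ) ^ p ≤ (∫⁻ z, h z ^ p ∂μ) * μ univ ^ (p - 1) := by
  have hp0 : 0 < p := by linarith
  refine (ENNReal.rpow_le_rpow (hold hp hm) hp0.le).trans (le_of_eq ?_)
  rw [ENNReal.mul_rpow_of_nonneg _ _ hp0.le, ← ENNReal.rpow_mul, ← ENNReal.rpow_mul,
    one_div_mul_cancel hp0.ne', ENNReal.rpow_one]
  congr 2
  field_simp

variable {Ω : Set V} {f : V → V} {F : V → (V →L[ℝ] V)}

/-- the `p`-th powers of the differences at distance `v` -/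
theorem shift_p (hΩ : IsOpen Ω) (hf : ContinuousOn f Ω) (hF : LocallyIntegrableOn F Ω volume)
    (hw : WeakDeriv volume Ω f F) {p : ℝ} (hp : 1 < p) {Q B : Set V} (hQm : MeasurableSet Q)
    (hQΩ : Q ⊆ Ω) (hB : MeasurableSet B) (v : V)
    (hseg : ∀ z ∈ B, ∀ s ∈ Icc (0 : ℝ) 1, z + s • v ∈ Q) :
    ∫⁻ z in B, ‖f (z + v) - f z‖ₑ ^ p ≤ ‖v‖ₑ ^ p * ∫⁻ z in Q, ‖F z‖ₑ ^ p := by
  have hp0 : 0 < p := by linarith
  set G : V → ℝ≥0∞ := Q.indicator fun z => ‖F z‖ₑ ^ p with hG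
  have hGm : AEMeasurable G volume := by
    rw [hG, aemeasurable_indicator_iff hQm]
    exact (hF.aestronglyMeasurable.mono_measure
      (Measure.restrict_mono hQΩ le_rfl)).enorm.pow_const p
  have hvt : ‖v‖ₑ ^ p ≠ ⊤ := ENNReal.rpow_ne_top_of_nonneg hp0.le enorm_ne_top
  have hgood := ae_goodSeg (μ := (volume : Measure V)) hΩ hf hF hw v
  have h1 : ∀ᵐ z ∂(volume.restrict B), ‖f (z + v) - f z‖ₑ ^ p ≤
      ‖v‖ₑ ^ p * ∫⁻ s in Ioc (0 : ℝ) 1, G (z + 0 + s • v) := by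
    filter_upwards [ae_restrict_of_ae hgood, ae_restrict_mem hB] with z hz hzB
    have hgs := hz fun s hs => hQΩ (hseg z hzB s hs)
    have h2 := hgs.enorm_sub_le (0 : V →L[ℝ] V)
      (t := 0) (t' := 1) ⟨le_rfl, zero_le_one⟩ ⟨zero_le_one, le_rfl⟩
    simp only [one_smul, zero_smul, add_zero, _root_.zero_apply, sub_zero] at h2
    have hm : AEMeasurable (fun s : ℝ => ‖F (z + s • v) v‖ₑ) (volume.restrict (Ioc (0:ℝ) 1)) :=
      hgs.integrableOn.aestronglyMeasurable.enorm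
    have h3 := jens hp hm
    have hu : (volume.restrict (Ioc (0:ℝ) 1)) univ = 1 := by
      rw [Measure.restrict_apply_univ, Real.volume_Ioc]; simp
    rw [hu, ENNReal.one_rpow, mul_one] at h3
    refine (ENNReal.rpow_le_rpow h2 hp0.le).trans (h3.trans ?_)
    rw [← lintegral_const_mul' _ _ hvt]
    refine setLIntegral_mono' measurableSet_Ioc fun s hs => ?_
    have h4 : z + 0 + s • v ∈ Q := by
      rw [add_zero]; exact hseg z hzB s ⟨hs.1.le, hs.2⟩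
    rw [hG, indicator_of_mem h4, add_zero, ← ENNReal.mul_rpow_of_nonneg _ _ hp0.le, mul_comm]
    exact ENNReal.rpow_le_rpow ((F (z + s • v)).le_opENorm v) hp0.le
  calc ∫⁻ z in B, ‖f (z + v) - f z‖ₑ ^ p
      ≤ ∫⁻ z in B, ‖v‖ₑ ^ p * ∫⁻ s in Ioc (0 : ℝ) 1, G (z + 0 + s • v) := lintegral_mono_ae h1
    _ = ‖v‖ₑ ^ p * ∫⁻ z in B, ∫⁻ s in Ioc (0 : ℝ) 1, G (z + 0 + s • v) :=
        lintegral_const_mul' _ _ hvt
    _ ≤ ‖v‖ₑ ^ p * ∫⁻ y in Q, G y := by
        refine mul_le_mul_right (lintegral_segAvg_le hGm hB 0 v ?_) _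
        intro x hx s hs
        rw [add_zero]; exact hseg x hx s hs
    _ = ‖v‖ₑ ^ p * ∫⁻ z in Q, ‖F z‖ₑ ^ p := by
        congr 1
        refine setLIntegral_congr_fun hQm fun z hz => ?_
        rw [hG]; exact indicator_of_mem hz _

end Vale.Agent.P073.H339.Sl
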