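import Vale.Agent.P073.H339.SlA

/-!
# P073 / H339: chaining over the subsquares of a square
-/

namespace Vale.Agent.P073.H339.Sl

open MeasureTheory Set Filter Topology Metric
open Vale.Agent.P073.St (V Mat euc)
open scoped ContDiff ENNReal

/-- the plane -/
abbrev P2 : Type := Fin 2 → ℝ

/-- centres of the four subsquares -/
noncomputable def ch (c : P2) (r : ℝ) (σ : Fin 2 → Bool) : P2 :=
  fun j => c j + if σ j then r / 2 else -(r / 2)

theorem mem_cb {c z : P2} {r : ℝ} (hr : 0 ≤ r) : z ∈ closedBall c r ↔ ∀ j, |z j - c j| ≤ r := by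
  rw [mem_closedBall, dist_pi_le_iff hr]
  exact Iff.rfl

theorem ch_sub (c : P2) {r : ℝ} (hr : 0 < r) (σ : Fin 2 → Bool) :
    closedBall (ch c r σ) (r / 2) ⊆ closedBall c r := by
  intro z hz
  rw [mem_cb (by positivity)] at hz ⊢
  intro j
  have := abs_le.1 (hz j)
  unfold ch at this
  rw [abs_le]
  split_ifs at this <;> constructor <;> linarith [this.1, this.2]

theorem exists_ch {c z : P2} {r : ℝ} (hr : 0 < r) (hz : z ∈ closedBall c r) :
    ∃ σ, z ∈ closedBall (ch c r σ) (r / 2) := by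
  classical
  refine ⟨fun j => decide (c j ≤ z j), ?_⟩
  rw [mem_cb (by positivity)] at hz ⊢
  intro j
  have := abs_le.1 (hz j)
  unfold ch
  rw [abs_le]
  by_cases h : c j ≤ z j
  · simp only [h, decide_true, if_true]
    constructor <;> linarith [this.1, this.2]
  · simp only [h, decide_false, Bool.false_eq_true, if_false]
    have := not_le.1 h
    constructor <;> linarith

theorem iUnion_ch (c : P2) {r : ℝ} (hr : 0 < r) :
    ⋃ σ, closedBall (ch c r σ) (r / 2) = closedBall c r := by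
  apply Subset.antisymm (iUnion_subset fun σ => ch_sub c hr σ)
  intro z hz
  exact mem_iUnion.2 (exists_ch hr hz)

theorem ch_inter {c z : P2} {r : ℝ} (hr : 0 < r) {σ τ : Fin 2 → Bool} (h : σ ≠ τ)
    (hz : z ∈ closedBall (ch c r σ) (r / 2)) (hz' : z ∈ closedBall (ch c r τ) (r / 2)) :
    ∃ j, z j = c j := by
  obtain ⟨j, hj⟩ := Function.ne_iff.1 h
  refine ⟨j, ?_⟩
  rw [mem_cb (by positivity)] at hz hz'
  have h1 := abs_le.1 (hz j)
  have h2 := abs_le.1 (hz' j)
  unfold ch at h1 h2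
  rcases Bool.eq_false_or_eq_true (σ j) with hs | hs <;>
    rcases Bool.eq_false_or_eq_true (τ j) with ht | ht
  · exact absurd (hs.trans ht.symm) hj
  · simp only [hs, ht, if_true, Bool.false_eq_true, if_false] at h1 h2
    linarith [h1.1, h2.2]
  · simp only [hs, ht, if_true, Bool.false_eq_true, if_false] at h1 h2
    linarith [h1.2, h2.1]
  · exact absurd (hs.trans ht.symm) hj

theorem norm_ch_sub {c : P2} {r : ℝ} (hr : 0 < r) (σ τ : Fin 2 → Bool) :
    ‖ch c r τ - ch c r σ‖ ≤ r := by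
  rw [pi_norm_le_iff_of_nonneg hr.le]
  intro j
  simp only [Pi.sub_apply, ch, Real.norm_eq_abs]
  rw [abs_le]
  split_ifs <;> constructor <;> linarith

theorem vol_cb2 (c : P2) {r : ℝ} (hr : 0 ≤ r) :
    volume (closedBall c r) = ENNReal.ofReal ((2 * r) ^ 2) := by
  rw [Real.volume_pi_closedBall c hr, Fintype.card_fin]

theorem aedisj_ch (c : P2) {r : ℝ} (hr : 0 < r) :
    Pairwise (Function.onFun (AEDisjoint volume) fun σ => closedBall (ch c r σ) (r / 2)) := by
  intro σ τ h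
  have h1 : closedBall (ch c r σ) (r / 2) ∩ closedBall (ch c r τ) (r / 2) ⊆
      ⋃ j : Fin 2, {z : P2 | z j = c j} := by
    rintro z ⟨hz, hz'⟩
    obtain ⟨j, hj⟩ := ch_inter hr h hz hz'
    exact mem_iUnion.2 ⟨j, hj⟩
  refine measure_mono_null h1 (measure_iUnion_null fun j => ?_)
  exact Measure.pi_hyperplane (fun _ : Fin 2 => (volume : Measure ℝ)) j (c j)

variable {g : P2 → V}

/-- the mean over the square -/
noncomputable def av (g : P2 → V) (c : P2) (r : ℝ) : V := ⨍ z in closedBall c r, g z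

theorem av_eq (g : P2 → V) (c : P2) {r : ℝ} (hr : 0 < r) :
    av g c r = ((2 * r) ^ 2)⁻¹ • ∫ z in closedBall c r, g z := by
  unfold av
  rw [setAverage_eq, measureReal_def, vol_cb2 c hr.le, ENNReal.toReal_ofReal (by positivity)]

theorem integ {c : P2} {r : ℝ} (_hr : 0 < r) (hg : ContinuousOn g (closedBall c r)) :
    IntegrableOn g (closedBall c r) := hg.integrableOn_compact (isCompact_closedBall c r)

theorem av_children {c : P2} {r : ℝ} (hr : 0 < r) (hg : ContinuousOn g (closedBall c r)) :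
    av g c r = (1 / 4 : ℝ) • ∑ σ, av g (ch c r σ) (r / 2) := by
  have h1 : ∫ z in closedBall c r, g z = ∑ σ, ∫ z in closedBall (ch c r σ) (r / 2), g z := by
    rw [← iUnion_ch c hr, integral_iUnion_ae (fun σ => measurableSet_closedBall.nullMeasurableSet)
      (aedisj_ch c hr) (by rw [iUnion_ch c hr]; exact integ hr hg), tsum_fintype]
  rw [av_eq g c hr, h1, Finset.smul_sum, Finset.smul_sum]
  refine Finset.sum_congr rfl fun σ _ => ?_
  rw [av_eq g _ (by positivity : 0 < r / 2), smul_smul]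
  congr 1
  field_simp
  norm_num

/-- the increments -/
noncomputable def A0 (p : ℝ) (g : P2 → V) (c : P2) (r : ℝ) : ℝ≥0∞ :=
  ∑ σ, ∑ τ, (ENNReal.ofReal (r ^ 2))⁻¹ *
    ∫⁻ z in closedBall (ch c r σ) (r / 2), ‖g (z + (ch c r τ - ch c r σ)) - g z‖ₑ ^ p

/-- the increments of generation `n` -/
noncomputable def An (p : ℝ) (g : P2 → V) : ℕ → P2 → ℝ → ℝ≥0∞
  | 0, c, r => A0 p g c r
  | n + 1, c, r => ∑ σ, An p g n (ch c r σ) (r / 2)

theorem av_sub_le {p : ℝ} (hp : 1 < p) {c : P2} {r : ℝ} (hr : 0 < r)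
    (hg : ContinuousOn g (closedBall c r)) (σ τ : Fin 2 → Bool) :
    ‖av g (ch c r σ) (r / 2) - av g (ch c r τ) (r / 2)‖ₑ ≤ A0 p g c r ^ (1 / p) := by
  have hp0 : 0 < p := by linarith
  set v := ch c r τ - ch c r σ with hv
  set B := closedBall (ch c r σ) (r / 2) with hB
  have hB' : closedBall (ch c r τ) (r / 2) = (fun z => z + v) '' B := by
    ext z
    constructor
    · intro hz
      refine ⟨z - v, ?_, by simp⟩
      rw [hB, mem_closedBall, dist_eq_norm]
      rw [mem_closedBall, dist_eq_norm] at hz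
      have : z - v - ch c r σ = z - ch c r τ := by rw [hv]; abel
      rw [this]; exact hz
    · rintro ⟨w, hw, rfl⟩
      rw [hB, mem_closedBall, dist_eq_norm] at hw
      rw [mem_closedBall, dist_eq_norm]
      have : w + v - ch c r τ = w - ch c r σ := by rw [hv]; abel
      show ‖w + v - ch c r τ‖ ≤ r / 2
      rw [this]; exact hw
  have hBc : B ⊆ closedBall c r := ch_sub c hr σ
  have hBv : ∀ z ∈ B, z + v ∈ closedBall c r := fun z hz =>
    ch_sub c hr τ (hB' ▸ mem_image_of_mem _ hz)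
  have hint : IntegrableOn g B := (integ hr hg).mono_set hBc
  have hcv : ContinuousOn (fun z => g (z + v)) B :=
    hg.comp (continuous_add_const v).continuousOn hBv
  have hint' : IntegrableOn (fun z => g (z + v)) B :=
    hcv.integrableOn_compact (isCompact_closedBall _ _)
  have e1 : ∫ z in closedBall (ch c r τ) (r / 2), g z = ∫ z in B, g (z + v) := by
    rw [hB']
    have hmp : MeasurePreserving (fun z : P2 => z + v) volume volume :=
      measurePreserving_add_right volume v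
    have hme : MeasurableEmbedding (fun z : P2 => z + v) :=
      (MeasurableEquiv.addRight v).measurableEmbedding
    exact hmp.setIntegral_image_emb hme g B
  have hvol : (volume.restrict B) univ = ENNReal.ofReal (r ^ 2) := by
    rw [Measure.restrict_apply_univ, hB, vol_cb2 _ (by positivity)]
    congr 2; ring
  have hne : ENNReal.ofReal (r ^ 2) ≠ 0 := by
    rw [Ne, ENNReal.ofReal_eq_zero, not_le]; positivity
  have hnt : ENNReal.ofReal (r ^ 2) ≠ ⊤ := ENNReal.ofReal_ne_top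
  have e2 : av g (ch c r σ) (r / 2) - av g (ch c r τ) (r / 2) =
      -((r ^ 2)⁻¹ • ∫ z in B, (g (z + v) - g z)) := by
    rw [av_eq g _ (by positivity : 0 < r / 2), av_eq g _ (by positivity : 0 < r / 2), e1,
      integral_sub hint' hint, ← smul_sub, ← smul_neg]
    have : (2 * (r / 2)) = r := by ring
    rw [this, neg_sub]
  have hm : AEMeasurable (fun z => ‖g (z + v) - g z‖ₑ) (volume.restrict B) :=
    (hint'.sub hint).aestronglyMeasurable.enorm
  have h1 : ‖av g (ch c r σ) (r / 2) - av g (ch c r τ) (r / 2)‖ₑ ≤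
      (ENNReal.ofReal (r ^ 2))⁻¹ * ∫⁻ z in B, ‖g (z + v) - g z‖ₑ := by
    rw [e2, enorm_neg, enorm_smul]
    have : ‖(r ^ 2)⁻¹‖ₑ = (ENNReal.ofReal (r ^ 2))⁻¹ := by
      rw [Real.enorm_eq_ofReal (by positivity), ENNReal.ofReal_inv_of_pos (by positivity)]
    rw [this]
    gcongr
    exact enorm_integral_le_lintegral_enorm _
  have h2 : ((ENNReal.ofReal (r ^ 2))⁻¹ * ∫⁻ z in B, ‖g (z + v) - g z‖ₑ) ^ p ≤
      (ENNReal.ofReal (r ^ 2))⁻¹ * ∫⁻ z in B, ‖g (z + v) - g z‖ₑ ^ p := by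
    rw [ENNReal.mul_rpow_of_nonneg _ _ hp0.le]
    have h3 := jens hp hm
    rw [hvol] at h3
    calc (ENNReal.ofReal (r ^ 2))⁻¹ ^ p * (∫⁻ z in B, ‖g (z + v) - g z‖ₑ) ^ p
        ≤ (ENNReal.ofReal (r ^ 2))⁻¹ ^ p * ((∫⁻ z in B, ‖g (z + v) - g z‖ₑ ^ p) *
            ENNReal.ofReal (r ^ 2) ^ (p - 1)) := by gcongr
      _ = ((ENNReal.ofReal (r ^ 2))⁻¹ ^ p * ENNReal.ofReal (r ^ 2) ^ (p - 1)) *
            ∫⁻ z in B, ‖g (z + v) - g z‖ₑ ^ p := by ring
      _ = _ := by
          congr 1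
          rw [ENNReal.inv_rpow, ← ENNReal.rpow_neg, ← ENNReal.rpow_add _ _ hne hnt]
          have : -p + (p - 1) = -1 := by ring
          rw [this, ENNReal.rpow_neg_one]
  have h4 : (ENNReal.ofReal (r ^ 2))⁻¹ * ∫⁻ z in B, ‖g (z + v) - g z‖ₑ ^ p ≤ A0 p g c r := by
    unfold A0
    refine le_trans ?_ (Finset.single_le_sum
      (f := fun σ => ∑ τ, (ENNReal.ofReal (r ^ 2))⁻¹ *
        ∫⁻ z in closedBall (ch c r σ) (r / 2), ‖g (z + (ch c r τ - ch c r σ)) - g z‖ₑ ^ p)
      (fun _ _ => zero_le) (Finset.mem_univ σ))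
    exact Finset.single_le_sum (f := fun τ => (ENNReal.ofReal (r ^ 2))⁻¹ *
        ∫⁻ z in closedBall (ch c r σ) (r / 2), ‖g (z + (ch c r τ - ch c r σ)) - g z‖ₑ ^ p)
      (fun _ _ => zero_le) (Finset.mem_univ τ)
  calc ‖av g (ch c r σ) (r / 2) - av g (ch c r τ) (r / 2)‖ₑ
      = (‖av g (ch c r σ) (r / 2) - av g (ch c r τ) (r / 2)‖ₑ ^ p) ^ (1 / p) := by
        rw [← ENNReal.rpow_mul, mul_one_div_cancel hp0.ne', ENNReal.rpow_one]
    _ ≤ A0 p g c r ^ (1 / p) := by
        refine ENNReal.rpow_le_rpow ?_ (by positivity)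
        exact (ENNReal.rpow_le_rpow h1 hp0.le).trans (h2.trans h4)

theorem av_child_le {p : ℝ} (hp : 1 < p) {c : P2} {r : ℝ} (hr : 0 < r)
    (hg : ContinuousOn g (closedBall c r)) (σ : Fin 2 → Bool) :
    ‖av g (ch c r σ) (r / 2) - av g c r‖ₑ ≤ A0 p g c r ^ (1 / p) := by
  have e : av g (ch c r σ) (r / 2) - av g c r =
      (1 / 4 : ℝ) • ∑ τ, (av g (ch c r σ) (r / 2) - av g (ch c r τ) (r / 2)) := by
    rw [av_children hr hg, Finset.sum_sub_distrib, Finset.sum_const, smul_sub]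
    congr 1
    rw [Finset.card_univ, Fintype.card_fun, Fintype.card_bool, Fintype.card_fin,
      ← Nat.cast_smul_eq_nsmul ℝ, smul_smul]
    norm_num
  rw [e, enorm_smul]
  have h1 : ‖∑ τ, (av g (ch c r σ) (r / 2) - av g (ch c r τ) (r / 2))‖ₑ ≤
      4 * A0 p g c r ^ (1 / p) := by
    refine (enorm_sum_le _ _).trans ?_
    refine (Finset.sum_le_sum fun τ _ => av_sub_le hp hr hg σ τ).trans (le_of_eq ?_)
    rw [Finset.sum_const, Finset.card_univ, Fintype.card_fun, Fintype.card_bool,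
      Fintype.card_fin, nsmul_eq_mul]
    norm_num
  have h2 : ‖(1 / 4 : ℝ)‖ₑ = 4⁻¹ := by
    rw [Real.enorm_eq_ofReal (by norm_num), one_div, ENNReal.ofReal_inv_of_pos (by norm_num)]
    norm_num
  rw [h2]
  calc (4 : ℝ≥0∞)⁻¹ * ‖∑ τ, (av g (ch c r σ) (r / 2) - av g (ch c r τ) (r / 2))‖ₑ
      ≤ 4⁻¹ * (4 * A0 p g c r ^ (1 / p)) := by gcongr
    _ = A0 p g c r ^ (1 / p) := by
        rw [← mul_assoc, ENNReal.inv_mul_cancel (by norm_num) (by norm_num), one_mul]

/-- the chain -/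
theorem chain {p : ℝ} (hp : 1 < p) {z : P2} (n : ℕ) : ∀ {c : P2} {r : ℝ}, 0 < r →
    ContinuousOn g (closedBall c r) → z ∈ closedBall c r →
    ∃ c', z ∈ closedBall c' (r / 2 ^ n) ∧ closedBall c' (r / 2 ^ n) ⊆ closedBall c r ∧
      ‖av g c' (r / 2 ^ n) - av g c r‖ₑ ≤ ∑ j ∈ Finset.range n, An p g j c r ^ (1 / p) := by
  induction n with
  | zero =>
    intro c r hr hg hz
    refine ⟨c, by simpa using hz, by simp, by simp⟩
  | succ n ih =>
    intro c r hr hg hz
    obtain ⟨σ, hσ⟩ := exists_ch hr hz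
    obtain ⟨c', h1, h2, h3⟩ := ih (c := ch c r σ) (r := r / 2) (by positivity)
      (hg.mono (ch_sub c hr σ)) hσ
    have e : r / 2 / 2 ^ n = r / 2 ^ (n + 1) := by rw [pow_succ]; field_simp
    rw [e] at h1 h2 h3
    refine ⟨c', h1, h2.trans (ch_sub c hr σ), ?_⟩
    have e2 : av g c' (r / 2 ^ (n + 1)) - av g c r =
        (av g c' (r / 2 ^ (n + 1)) - av g (ch c r σ) (r / 2)) +
          (av g (ch c r σ) (r / 2) - av g c r) := by abel
    rw [e2, Finset.sum_range_succ']
    refine (enorm_add_le _ _).trans (add_le_add ?_ (av_child_le hp hr hg σ))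
    refine h3.trans (Finset.sum_le_sum fun j _ => ?_)
    refine ENNReal.rpow_le_rpow ?_ (by
      have : 0 < p := by linarith
      positivity)
    show An p g j (ch c r σ) (r / 2) ≤ ∑ σ, An p g j (ch c r σ) (r / 2)
    exact Finset.single_le_sum (f := fun σ => An p g j (ch c r σ) (r / 2))
      (fun _ _ => zero_le) (Finset.mem_univ σ)

theorem sub_av_le {p : ℝ} (hp : 1 < p) {c z : P2} {r : ℝ} (hr : 0 < r)
    (hg : ContinuousOn g (closedBall c r)) (hz : z ∈ closedBall c r) :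
    ‖g z - av g c r‖ₑ ≤ ∑' j, An p g j c r ^ (1 / p) := by
  refine ENNReal.le_of_forall_pos_le_add fun δ hδ _ => ?_
  have hδ' : (0 : ℝ) < δ := hδ
  obtain ⟨η, hη, h1⟩ := Metric.continuousOn_iff.1 hg z hz δ hδ'
  obtain ⟨n, hn⟩ : ∃ n : ℕ, 2 * (r / 2 ^ n) < η := by
    have h5 : Tendsto (fun n : ℕ => 2 * (r * (1 / 2 : ℝ) ^ n)) atTop (𝓝 (2 * (r * 0))) :=
      ((tendsto_pow_atTop_nhds_zero_of_lt_one (by norm_num) (by norm_num)).const_mul r).const_mul 2
    rw [mul_zero, mul_zero] at h5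
    obtain ⟨n, hn⟩ := (h5.eventually_lt_const hη).exists
    refine ⟨n, ?_⟩
    have : r / 2 ^ n = r * (1 / 2 : ℝ) ^ n := by rw [one_div, inv_pow]; rfl
    rw [this]; exact hn
  obtain ⟨c', h2, h3, h4⟩ := chain hp (g := g) (z := z) n hr hg hz
  have hrn : 0 < r / 2 ^ n := by positivity
  have h5 : av g c' (r / 2 ^ n) ∈ closedBall (g z) δ := by
    refine (convex_closedBall (g z) (δ : ℝ)).set_average_mem isClosed_closedBall ?_ ?_ ?_ ?_
    · rw [vol_cb2 c' hrn.le, Ne, ENNReal.ofReal_eq_zero, not_le]; positivity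
    · rw [vol_cb2 c' hrn.le]; exact ENNReal.ofReal_ne_top
    · filter_upwards [ae_restrict_mem measurableSet_closedBall] with w hw
      refine (h1 w (h3 hw) ?_).le
      calc dist w z ≤ dist w c' + dist z c' := dist_triangle_right _ _ _
        _ ≤ r / 2 ^ n + r / 2 ^ n := add_le_add (mem_closedBall.1 hw) (mem_closedBall.1 h2)
        _ = 2 * (r / 2 ^ n) := by ring
        _ < η := hn
    · exact (integ hr hg).mono_set h3
  have e : g z - av g c r = -(av g c' (r / 2 ^ n) - g z) + (av g c' (r / 2 ^ n) - av g c r) := by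
    abel
  rw [e, add_comm (∑' j, _)]
  refine (enorm_add_le _ _).trans (add_le_add ?_ (h4.trans (ENNReal.sum_le_tsum _)))
  rw [enorm_neg, ← ofReal_norm]
  rw [mem_closedBall, dist_eq_norm] at h5
  refine (ENNReal.ofReal_le_ofReal h5).trans (le_of_eq ?_)
  exact ENNReal.ofReal_coe_nnreal

/-- the oscillation over the square -/
theorem osc_le {p : ℝ} (hp : 1 < p) {c z w : P2} {r : ℝ} (hr : 0 < r)
    (hg : ContinuousOn g (closedBall c r)) (hz : z ∈ closedBall c r) (hw : w ∈ closedBall c r) :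
    ‖g z - g w‖ₑ ≤ 2 * ∑' j, An p g j c r ^ (1 / p) := by
  have e : g z - g w = (g z - av g c r) + -(g w - av g c r) := by abel
  rw [e, two_mul]
  refine (enorm_add_le _ _).trans (add_le_add (sub_av_le hp hr hg hz) ?_)
  rw [enorm_neg]
  exact sub_av_le hp hr hg hw

end Vale.Agent.P073.H339.Sl
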