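import Vale.Agent.P073.H339.SlB
import Vale.Agent.P073.SQ.Edge

/-!
# P073 / H339: the oscillation of a `W^{1,p}` map, `p > 2`, on the plane slices of a cube,
integrated over the slices
-/

namespace Vale.Agent.P073.H339.Sl

open MeasureTheory Set Filter Topology Metric Vale.Agent.P073.HB
open Vale.Agent.P073.St (V Mat euc)
open scoped ContDiff ENNReal

variable {Ω : Set V} {f : V → V} {F : V → (V →L[ℝ] V)}

/-- insertion of the coordinate `k` -/
noncomputable def ins (k : Fin 3) (t : ℝ) (z : P2) : V := k.insertNth (α := fun _ => ℝ) t z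

theorem ins_same (k : Fin 3) (t : ℝ) (z : P2) : ins k t z k = t := by
  unfold ins; rw [Fin.insertNth_apply_same]

theorem ins_succ (k : Fin 3) (t : ℝ) (z : P2) (j : Fin 2) : ins k t z (k.succAbove j) = z j := by
  unfold ins; rw [Fin.insertNth_apply_succAbove]

theorem ins_self (k : Fin 3) (x : V) : ins k (x k) (k.removeNth x) = x := by
  unfold ins; exact Fin.insertNth_self_removeNth k x

theorem rem_ins (k : Fin 3) (t : ℝ) (z : P2) : k.removeNth (ins k t z) = z := by
  funext j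
  show ins k t z (k.succAbove j) = z j
  rw [ins_succ]

theorem ins_add (k : Fin 3) (x : V) (v : P2) :
    ins k (x k) (k.removeNth x + v) = x + ins k 0 v := by
  funext l
  rcases Fin.eq_self_or_eq_succAbove k l with rfl | ⟨j, rfl⟩
  · rw [ins_same, Pi.add_apply, ins_same, add_zero]
  · rw [ins_succ, Pi.add_apply, Pi.add_apply, ins_succ]; rfl

theorem norm_ins (k : Fin 3) (v : P2) : ‖ins k 0 v‖ ≤ ‖v‖ := by
  rw [pi_norm_le_iff_of_nonneg (norm_nonneg _)]
  intro l
  rcases Fin.eq_self_or_eq_succAbove k l with rfl | ⟨j, rfl⟩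
  · rw [ins_same, norm_zero]; exact norm_nonneg _
  · rw [ins_succ]; exact norm_le_pi_norm v j

theorem measurable_ins2 (k : Fin 3) : Measurable fun q : ℝ × P2 => ins k q.1 q.2 := by
  rw [measurable_pi_iff]
  intro l
  rcases Fin.eq_self_or_eq_succAbove k l with rfl | ⟨j, rfl⟩
  · simp only [ins_same]; exact measurable_fst
  · simp only [ins_succ]; exact (measurable_pi_apply j).comp measurable_snd

theorem continuous_ins (k : Fin 3) (t : ℝ) : Continuous (ins k t) := by
  refine continuous_pi fun l => ?_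
  rcases Fin.eq_self_or_eq_succAbove k l with rfl | ⟨j, rfl⟩
  · simp only [ins_same]; exact continuous_const
  · simp only [ins_succ]; exact continuous_apply j

theorem mem_cb3 {c x : V} {r : ℝ} (hr : 0 ≤ r) (k : Fin 3) :
    x ∈ closedBall c r ↔ x k ∈ Icc (c k - r) (c k + r) ∧
      k.removeNth x ∈ closedBall (k.removeNth c) r := by
  rw [mem_closedBall, dist_pi_le_iff hr, mem_cb hr]
  constructor
  · intro h
    refine ⟨?_, fun j => h _⟩
    have := abs_le.1 (h k)
    exact ⟨by linarith [this.1], by linarith [this.2]⟩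
  · rintro ⟨h1, h2⟩ l
    rcases Fin.eq_self_or_eq_succAbove k l with rfl | ⟨j, rfl⟩
    · rw [Real.dist_eq, abs_le]
      exact ⟨by linarith [h1.1], by linarith [h1.2]⟩
    · exact h2 j

/-- the column over a square -/
def col (k : Fin 3) (I : Set ℝ) (c : P2) (r : ℝ) : Set V :=
  {x | x k ∈ I ∧ k.removeNth x ∈ closedBall c r}

theorem measurable_rem (k : Fin 3) : Measurable fun x : V => (k.removeNth x : P2) := by
  rw [measurable_pi_iff]
  intro j
  exact measurable_pi_apply _

theorem measurableSet_col (k : Fin 3) {I : Set ℝ} (hI : MeasurableSet I) (c : P2) (r : ℝ) :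
    MeasurableSet (col k I c r) :=
  (hI.preimage (measurable_pi_apply k)).inter (measurableSet_closedBall.preimage (measurable_rem k))

section fixed

variable (k : Fin 3) (c : V) (r : ℝ)

/-- the slices of `f` on the cube -/
noncomputable def Gs (f : V → V) (t : ℝ) (z : P2) : V :=
  (closedBall c r).indicator f (ins k t z)

theorem measurable_Gs (hf : ContinuousOn f (closedBall c r)) :
    Measurable fun q : ℝ × P2 => Gs k c r f q.1 q.2 := by
  have h1 : Measurable ((closedBall c r).indicator f) := by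
    classical
    rw [← piecewise_eq_indicator]
    exact hf.measurable_piecewise continuousOn_const measurableSet_closedBall
  exact h1.comp (measurable_ins2 k)

theorem measurable_D (hf : ContinuousOn f (closedBall c r)) (p : ℝ) (v : P2) :
    Measurable fun q : ℝ × P2 => ‖Gs k c r f q.1 (q.2 + v) - Gs k c r f q.1 q.2‖ₑ ^ p := by
  have h1 := measurable_Gs k c r hf
  have h3 : Measurable (fun q : ℝ × P2 => ((q.1, q.2 + v) : ℝ × P2)) :=
    measurable_fst.prodMk (measurable_snd.add_const v)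
  have h4 : Measurable ((fun q : ℝ × P2 => Gs k c r f q.1 q.2) ∘
      fun q : ℝ × P2 => ((q.1, q.2 + v) : ℝ × P2)) := h1.comp h3
  have h5 : Measurable fun q : ℝ × P2 => Gs k c r f q.1 (q.2 + v) := h4
  exact ((h5.sub h1).enorm).pow_const p

theorem measurable_Di (hf : ContinuousOn f (closedBall c r)) (p : ℝ) (v : P2) (B : Set P2) :
    Measurable fun t : ℝ => ∫⁻ z in B, ‖Gs k c r f t (z + v) - Gs k c r f t z‖ₑ ^ p :=
  (measurable_D k c r hf p v).lintegral_prod_right'

theorem measurable_A0 (hf : ContinuousOn f (closedBall c r)) (p : ℝ) (c' : P2) (ρ : ℝ) :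
    Measurable fun t => A0 p (Gs k c r f t) c' ρ := by
  unfold A0
  refine Finset.measurable_sum _ fun σ _ => Finset.measurable_sum _ fun τ _ => ?_
  exact (measurable_Di k c r hf p (ch c' ρ τ - ch c' ρ σ) _).const_mul _

theorem measurable_An (hf : ContinuousOn f (closedBall c r)) (p : ℝ) (n : ℕ) :
    ∀ (c' : P2) (ρ : ℝ), Measurable fun t => An p (Gs k c r f t) n c' ρ := by
  induction n with
  | zero => exact fun c' ρ => measurable_A0 k c r hf p c' ρ
  | succ n ih =>
    intro c' ρ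
    exact Finset.measurable_sum _ fun σ _ => ih _ _

variable {k c r}

theorem sum_col (H : V → ℝ≥0∞) {I : Set ℝ} (hI : MeasurableSet I) {c' : P2} {ρ : ℝ} (hρ : 0 < ρ) :
    ∑ σ, ∫⁻ x in col k I (ch c' ρ σ) (ρ / 2), H x = ∫⁻ x in col k I c' ρ, H x := by
  have e : ⋃ σ, col k I (ch c' ρ σ) (ρ / 2) = col k I c' ρ := by
    ext x
    constructor
    · intro hx
      obtain ⟨σ, h1, h2⟩ := mem_iUnion.1 hx
      exact ⟨h1, ch_sub c' hρ σ h2⟩
    · rintro ⟨h1, h2⟩
      obtain ⟨σ, hσ⟩ := exists_ch hρ h2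
      exact mem_iUnion.2 ⟨σ, h1, hσ⟩
  rw [← e, lintegral_iUnion₀ (fun σ => (measurableSet_col k hI _ _).nullMeasurableSet), tsum_fintype]
  intro σ τ h
  have h1 : col k I (ch c' ρ σ) (ρ / 2) ∩ col k I (ch c' ρ τ) (ρ / 2) ⊆
      ⋃ j : Fin 2, {x : V | x (k.succAbove j) = c' j} := by
    rintro x ⟨hx, hx'⟩
    obtain ⟨j, hj⟩ := ch_inter hρ h hx.2 hx'.2
    exact mem_iUnion.2 ⟨j, hj⟩
  refine measure_mono_null h1 (measure_iUnion_null fun j => ?_)
  exact Measure.pi_hyperplane (fun _ : Fin 3 => (volume : Measure ℝ)) (k.succAbove j) (c' j)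

theorem int_A0 (hΩ : IsOpen Ω) (hf : ContinuousOn f Ω) (hF : LocallyIntegrableOn F Ω volume)
    (hw : WeakDeriv volume Ω f F) {p : ℝ} (hp : 2 < p) (hr : 0 < r) (hc : closedBall c r ⊆ Ω)
    {c' : P2} {ρ : ℝ} (hρ : 0 < ρ) (hcc : closedBall c' ρ ⊆ closedBall (k.removeNth c) r) :
    ∫⁻ t in Icc (c k - r) (c k + r), A0 p (Gs k c r f t) c' ρ ≤
      16 * ENNReal.ofReal (ρ ^ (p - 2)) *
        ∫⁻ x in col k (Icc (c k - r) (c k + r)) c' ρ, ‖F x‖ₑ ^ p := by
  have hp0 : 0 < p := by linarith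
  set I := Icc (c k - r) (c k + r) with hI
  have hIm : MeasurableSet I := measurableSet_Icc
  set E := ∫⁻ x in col k I c' ρ, ‖F x‖ₑ ^ p with hE
  have hterm : ∀ σ τ : Fin 2 → Bool,
      ∫⁻ t in I, ∫⁻ z in closedBall (ch c' ρ σ) (ρ / 2),
        ‖Gs k c r f t (z + (ch c' ρ τ - ch c' ρ σ)) - Gs k c r f t z‖ₑ ^ p ≤
      ENNReal.ofReal ρ ^ p * E := by
    intro σ τ
    set v := ch c' ρ τ - ch c' ρ σ with hv
    have hHm : Measurable fun q : ℝ × P2 =>
        ‖Gs k c r f q.1 (q.2 + v) - Gs k c r f q.1 q.2‖ₑ ^ p :=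
      measurable_D k c r (hf.mono hc) p v
    have h1 := SQ.Edge.fubini k hIm (measurableSet_closedBall (x := ch c' ρ σ) (ε := ρ / 2)) hHm
    rw [← h1]
    have hset : {x : V | x k ∈ I ∧ k.removeNth x ∈ closedBall (ch c' ρ σ) (ρ / 2)} =
      col k I (ch c' ρ σ) (ρ / 2) := rfl
    rw [hset]
    have hend : ∀ x ∈ col k I (ch c' ρ σ) (ρ / 2), k.removeNth x + v ∈ closedBall c' ρ := by
      rintro x ⟨-, hx⟩
      refine ch_sub c' hρ τ ?_
      rw [mem_closedBall, dist_eq_norm] at hx ⊢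
      have : k.removeNth x + v - ch c' ρ τ = k.removeNth x - ch c' ρ σ := by rw [hv]; abel
      rw [this]; exact hx
    have hseg : ∀ x ∈ col k I (ch c' ρ σ) (ρ / 2), ∀ s ∈ Icc (0 : ℝ) 1,
        x + s • ins k 0 v ∈ col k I c' ρ := by
      intro x hx s hs
      have e1 : (x + s • ins k 0 v) k = x k := by
        rw [Pi.add_apply, Pi.smul_apply, ins_same, smul_zero, add_zero]
      have e2 : k.removeNth (x + s • ins k 0 v) =
          (1 - s) • (k.removeNth x : P2) + s • (k.removeNth x + v) := by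
        funext j
        show (x + s • ins k 0 v) (k.succAbove j) = _
        simp only [Pi.add_apply, Pi.smul_apply, smul_eq_mul, ins_succ]
        show x (k.succAbove j) + s * v j =
          (1 - s) * x (k.succAbove j) + s * (x (k.succAbove j) + v j)
        ring
      refine ⟨by rw [e1]; exact hx.1, ?_⟩
      rw [e2]
      exact (convex_closedBall c' ρ) (ch_sub c' hρ σ hx.2) (hend x hx) (sub_nonneg.2 hs.2) hs.1
        (by ring)
    have hcolΩ : col k I c' ρ ⊆ closedBall c r := fun x hx =>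
      (mem_cb3 hr.le k).2 ⟨hx.1, hcc hx.2⟩
    have h2 : ∫⁻ x in col k I (ch c' ρ σ) (ρ / 2),
        ‖Gs k c r f (x k) (k.removeNth x + v) - Gs k c r f (x k) (k.removeNth x)‖ₑ ^ p =
        ∫⁻ x in col k I (ch c' ρ σ) (ρ / 2), ‖f (x + ins k 0 v) - f x‖ₑ ^ p := by
      refine setLIntegral_congr_fun (measurableSet_col k hIm _ _) fun x hx => ?_
      have hx1 : x ∈ closedBall c r := hcolΩ ⟨hx.1, ch_sub c' hρ σ hx.2⟩
      have hx2 : x + ins k 0 v ∈ closedBall c r := by
        have := hcolΩ (hseg x hx 1 ⟨zero_le_one, le_rfl⟩)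
        rwa [one_smul] at this
      simp only [Gs]
      rw [ins_add, ins_self, indicator_of_mem hx1, indicator_of_mem hx2]
    rw [h2]
    refine (shift_p hΩ hf hF hw (by linarith) (measurableSet_col k hIm c' ρ)
      (hcolΩ.trans hc) (measurableSet_col k hIm _ _) (ins k 0 v) hseg).trans ?_
    gcongr
    rw [← ofReal_norm]
    exact ENNReal.ofReal_le_ofReal ((norm_ins k v).trans (norm_ch_sub hρ σ τ))
  have hρ2 : ENNReal.ofReal (ρ ^ 2) ≠ 0 := by
    rw [Ne, ENNReal.ofReal_eq_zero, not_le]; positivity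
  have e3 : (ENNReal.ofReal (ρ ^ 2))⁻¹ * ENNReal.ofReal ρ ^ p = ENNReal.ofReal (ρ ^ (p - 2)) := by
    rw [← ENNReal.ofReal_inv_of_pos (by positivity), ENNReal.ofReal_rpow_of_pos hρ,
      ← ENNReal.ofReal_mul (by positivity)]
    congr 1
    rw [Real.rpow_sub hρ, Real.rpow_two]
    field_simp
  have hm : ∀ σ τ : Fin 2 → Bool, Measurable fun t =>
      ∫⁻ z in closedBall (ch c' ρ σ) (ρ / 2),
        ‖Gs k c r f t (z + (ch c' ρ τ - ch c' ρ σ)) - Gs k c r f t z‖ₑ ^ p :=
    fun σ τ => measurable_Di k c r (hf.mono hc) p (ch c' ρ τ - ch c' ρ σ) _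
  calc ∫⁻ t in I, A0 p (Gs k c r f t) c' ρ
      = ∑ σ, ∑ τ, (ENNReal.ofReal (ρ ^ 2))⁻¹ *
          ∫⁻ t in I, ∫⁻ z in closedBall (ch c' ρ σ) (ρ / 2),
            ‖Gs k c r f t (z + (ch c' ρ τ - ch c' ρ σ)) - Gs k c r f t z‖ₑ ^ p := by
        unfold A0
        rw [lintegral_finsetSum _ fun σ _ => Finset.measurable_sum _ fun τ _ =>
          (hm σ τ).const_mul _]
        refine Finset.sum_congr rfl fun σ _ => ?_
        rw [lintegral_finsetSum _ fun τ _ => (hm σ τ).const_mul _]
        refine Finset.sum_congr rfl fun τ _ => ?_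
        rw [lintegral_const_mul _ (hm σ τ)]
    _ ≤ ∑ _σ : Fin 2 → Bool, ∑ _τ : Fin 2 → Bool,
          (ENNReal.ofReal (ρ ^ 2))⁻¹ * (ENNReal.ofReal ρ ^ p * E) := by
        refine Finset.sum_le_sum fun σ _ => Finset.sum_le_sum fun τ _ => ?_
        gcongr
        exact hterm σ τ
    _ = 16 * ENNReal.ofReal (ρ ^ (p - 2)) * E := by
        rw [← mul_assoc, e3, Finset.sum_const, Finset.sum_const, Finset.card_univ,
          Fintype.card_fun, Fintype.card_bool, Fintype.card_fin, nsmul_eq_mul, nsmul_eq_mul]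
        norm_num
        ring

theorem int_An (hΩ : IsOpen Ω) (hf : ContinuousOn f Ω) (hF : LocallyIntegrableOn F Ω volume)
    (hw : WeakDeriv volume Ω f F) {p : ℝ} (hp : 2 < p) (hr : 0 < r) (hc : closedBall c r ⊆ Ω)
    (n : ℕ) : ∀ {c' : P2} {ρ : ℝ}, 0 < ρ → closedBall c' ρ ⊆ closedBall (k.removeNth c) r →
    ∫⁻ t in Icc (c k - r) (c k + r), An p (Gs k c r f t) n c' ρ ≤
      16 * ENNReal.ofReal ((ρ / 2 ^ n) ^ (p - 2)) *
        ∫⁻ x in col k (Icc (c k - r) (c k + r)) c' ρ, ‖F x‖ₑ ^ p := by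
  induction n with
  | zero =>
    intro c' ρ hρ hcc
    rw [pow_zero, div_one]
    exact int_A0 hΩ hf hF hw hp hr hc hρ hcc
  | succ n ih =>
    intro c' ρ hρ hcc
    have e : ρ / 2 / 2 ^ n = ρ / 2 ^ (n + 1) := by rw [pow_succ]; field_simp
    calc ∫⁻ t in Icc (c k - r) (c k + r), An p (Gs k c r f t) (n + 1) c' ρ
        = ∑ σ, ∫⁻ t in Icc (c k - r) (c k + r), An p (Gs k c r f t) n (ch c' ρ σ) (ρ / 2) := by
          show ∫⁻ t in Icc (c k - r) (c k + r),
            ∑ σ, An p (Gs k c r f t) n (ch c' ρ σ) (ρ / 2) = _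
          rw [lintegral_finsetSum _ fun σ _ => measurable_An k c r (hf.mono hc) p n _ _]
      _ ≤ ∑ σ, 16 * ENNReal.ofReal ((ρ / 2 / 2 ^ n) ^ (p - 2)) *
            ∫⁻ x in col k (Icc (c k - r) (c k + r)) (ch c' ρ σ) (ρ / 2), ‖F x‖ₑ ^ p :=
          Finset.sum_le_sum fun σ _ => ih (by positivity) ((ch_sub c' hρ σ).trans hcc)
      _ = _ := by
          rw [← Finset.mul_sum, sum_col _ measurableSet_Icc hρ, e]

end fixed

/-- **The oscillation of a `W^{1,p}` map, `p > 2`, on the plane slices of a cube.** -/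
theorem slice_osc {p : ℝ} (hp : 2 < p) : ∃ C : ℝ≥0∞, C ≠ ⊤ ∧
    ∀ (Ω : Set V) (f : V → V) (F : V → (V →L[ℝ] V)), IsOpen Ω → ContinuousOn f Ω →
    LocallyIntegrableOn F Ω volume → HB.WeakDeriv volume Ω f F →
    ∀ (k : Fin 3) (c : V) (r : ℝ), 0 < r → closedBall c r ⊆ Ω →
    ∃ U : ℝ → ℝ≥0∞, Measurable U ∧
      (∀ x ∈ closedBall c r, ∀ y ∈ closedBall c r, x k = y k → ‖f x - f y‖ₑ ≤ U (x k)) ∧
      ∫⁻ t, U t ≤ C * ENNReal.ofReal (r ^ (2 - 3 / p)) *
        (∫⁻ z in closedBall c r, ‖F z‖ₑ ^ p) ^ (1 / p) := by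
  have hp0 : 0 < p := by linarith
  have hp1 : 1 < p := by linarith
  set q : ℝ := (1 / 2 : ℝ) ^ ((p - 2) / p) with hq
  have hq0 : 0 < q := by positivity
  have hq1 : q < 1 := Real.rpow_lt_one (by norm_num) (by norm_num)
    (div_pos (by linarith) hp0)
  refine ⟨2 * (16 ^ (1 / p) * ENNReal.ofReal (2 ^ (1 - 1 / p)) * (1 - ENNReal.ofReal q)⁻¹), ?_, ?_⟩
  · refine ENNReal.mul_ne_top (by norm_num) (ENNReal.mul_ne_top (ENNReal.mul_ne_top
      (ENNReal.rpow_ne_top_of_nonneg (by positivity) (by norm_num)) ENNReal.ofReal_ne_top) ?_)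
    rw [Ne, ENNReal.inv_eq_top, tsub_eq_zero_iff_le, not_le]
    rw [← ENNReal.ofReal_one]
    exact (ENNReal.ofReal_lt_ofReal_iff one_pos).2 hq1
  intro Ω f F hΩ hf hF hw k c r hr hc
  set I := Icc (c k - r) (c k + r) with hI
  have hIm : MeasurableSet I := measurableSet_Icc
  have hfc := hf.mono hc
  have hmA : ∀ j, Measurable fun t => An p (Gs k c r f t) j (k.removeNth c) r := fun j =>
    measurable_An k c r hfc p j _ _
  refine ⟨I.indicator fun t => 2 * ∑' j, An p (Gs k c r f t) j (k.removeNth c) r ^ (1 / p),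
    ?_, ?_, ?_⟩
  · refine Measurable.indicator (Measurable.const_mul (Measurable.ennreal_tsum fun j => ?_) _) hIm
    exact (hmA j).pow_const _
  · intro x hx y hy hxy
    obtain ⟨hx1, hx2⟩ := (mem_cb3 hr.le k).1 hx
    obtain ⟨hy1, hy2⟩ := (mem_cb3 hr.le k).1 hy
    rw [indicator_of_mem (show x k ∈ I from hx1)]
    have hG : ∀ z ∈ closedBall (k.removeNth c : P2) r,
        Gs k c r f (x k) z = f (ins k (x k) z) := by
      intro z hz
      have : ins k (x k) z ∈ closedBall c r :=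
        (mem_cb3 hr.le k).2 ⟨by rw [ins_same]; exact hx1, by rw [rem_ins]; exact hz⟩
      unfold Gs
      rw [indicator_of_mem this]
    have hcont : ContinuousOn (Gs k c r f (x k)) (closedBall (k.removeNth c : P2) r) := by
      refine ContinuousOn.congr (f := fun z => f (ins k (x k) z)) ?_ hG
      refine hfc.comp (continuous_ins k (x k)).continuousOn fun z hz => ?_
      exact (mem_cb3 hr.le k).2 ⟨by rw [ins_same]; exact hx1, by rw [rem_ins]; exact hz⟩
    have h1 := osc_le hp1 hr hcont hx2 hy2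
    rw [hG _ hx2, hG _ hy2, ins_self] at h1
    have h2 : ins k (x k) (k.removeNth y) = y := by rw [hxy]; exact ins_self k y
    rw [h2] at h1
    exact h1
  · rw [lintegral_indicator hIm, lintegral_const_mul _ (Measurable.ennreal_tsum fun j =>
      (hmA j).pow_const _), lintegral_tsum fun j => ((hmA j).pow_const _).aemeasurable]
    have hvol : (volume.restrict I) univ = ENNReal.ofReal (2 * r) := by
      rw [Measure.restrict_apply_univ, hI, Real.volume_Icc]
      congr 1; ring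
    have hcol : col k I (k.removeNth c) r = closedBall c r := by
      ext x
      exact (mem_cb3 hr.le k).symm
    set E := ∫⁻ z in closedBall c r, ‖F z‖ₑ ^ p with hE
    have hj : ∀ j, ∫⁻ t in I, An p (Gs k c r f t) j (k.removeNth c) r ^ (1 / p) ≤
        16 ^ (1 / p) * ENNReal.ofReal (2 ^ (1 - 1 / p)) * ENNReal.ofReal (r ^ (2 - 3 / p)) *
          E ^ (1 / p) * ENNReal.ofReal q ^ j := by
      intro j
      have h1 := hold (μ := volume.restrict I) hp1 ((hmA j).pow_const (1 / p)).aemeasurable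
      have e1 : ∀ t, (An p (Gs k c r f t) j (k.removeNth c) r ^ (1 / p)) ^ p =
          An p (Gs k c r f t) j (k.removeNth c) r := fun t => by
        rw [← ENNReal.rpow_mul, one_div_mul_cancel hp0.ne', ENNReal.rpow_one]
      simp_rw [e1] at h1
      rw [hvol] at h1
      have h2 := int_An (k := k) hΩ hf hF hw hp hr hc j hr (Subset.refl _)
      rw [← hI, hcol, ← hE] at h2
      refine h1.trans ?_
      refine (mul_le_mul_left (ENNReal.rpow_le_rpow h2 (by positivity)) _).trans (le_of_eq ?_)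
      have hr2 : 0 < r / 2 ^ j := by positivity
      rw [ENNReal.mul_rpow_of_nonneg _ _ (by positivity), ENNReal.mul_rpow_of_nonneg _ _
        (by positivity), ENNReal.ofReal_rpow_of_pos (by positivity),
        ENNReal.ofReal_rpow_of_pos (by positivity), ← ENNReal.ofReal_pow hq0.le]
      have e2 : ENNReal.ofReal (((r / 2 ^ j) ^ (p - 2)) ^ (1 / p)) *
          ENNReal.ofReal ((2 * r) ^ (1 - 1 / p)) =
          ENNReal.ofReal (2 ^ (1 - 1 / p)) * ENNReal.ofReal (r ^ (2 - 3 / p)) *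
            ENNReal.ofReal (q ^ j) := by
        rw [← ENNReal.ofReal_mul (by positivity), ← ENNReal.ofReal_mul (by positivity),
          ← ENNReal.ofReal_mul (by positivity)]
        congr 1
        rw [← Real.rpow_mul hr2.le, Real.mul_rpow (by norm_num) hr.le,
          Real.div_rpow hr.le (by positivity), hq, ← Real.rpow_natCast ((1 / 2 : ℝ) ^ _) j,
          ← Real.rpow_mul (by norm_num), ← Real.rpow_natCast 2 j, ← Real.rpow_mul (by norm_num)]
        have e5 : (2 : ℝ) - 3 / p = (p - 2) * (1 / p) + (1 - 1 / p) := by field_simp; ring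
        rw [e5, Real.rpow_add hr]
        have e6 : ((1 / 2 : ℝ)) ^ ((p - 2) / p * j) = ((2 : ℝ) ^ ((j : ℝ) * ((p - 2) * (1 / p))))⁻¹ := by
          rw [one_div, Real.inv_rpow (by norm_num)]
          congr 2
          ring
        rw [e6]
        ring
      calc 16 ^ (1 / p) * ENNReal.ofReal (((r / 2 ^ j) ^ (p - 2)) ^ (1 / p)) * E ^ (1 / p) *
            ENNReal.ofReal ((2 * r) ^ (1 - 1 / p))
          = 16 ^ (1 / p) * (ENNReal.ofReal (((r / 2 ^ j) ^ (p - 2)) ^ (1 / p)) *
              ENNReal.ofReal ((2 * r) ^ (1 - 1 / p))) * E ^ (1 / p) := by ring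
        _ = _ := by rw [e2]; ring
    calc 2 * ∑' j, ∫⁻ t in I, An p (Gs k c r f t) j (k.removeNth c) r ^ (1 / p)
        ≤ 2 * ∑' j, 16 ^ (1 / p) * ENNReal.ofReal (2 ^ (1 - 1 / p)) *
            ENNReal.ofReal (r ^ (2 - 3 / p)) * E ^ (1 / p) * ENNReal.ofReal q ^ j := by
          gcongr with j
          exact hj j
      _ = _ := by
          rw [ENNReal.tsum_mul_left, ENNReal.tsum_geometric]
          ring

end Vale.Agent.P073.H339.Sl
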