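import Vale.Agent.P073.H146.DimA
import Vale.Agent.P073.H339.SliceOsc
import Vale.Agent.P073.H705.Cover

/-!
# P073: row Z3, sets of σ-finite measure of dimension `(2p-3)/(p-1)`, `2 < p < 3`
-/

namespace Vale.Agent.P073.H339

/-- **Row Z3** -/
theorem specDim : Vale.Agent.P073.H146.SpecDim :=
  H146.specDim_of (fun _ hp => Sl.slice_osc hp) H705.specCover

end Vale.Agent.P073.H339
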